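import Vale.Agent.P092.MMain

namespace Vale.Agent.Results.P092.Abelian

open Vale.Agent.P092S

theorem result :
    (∀ (R : Type) [EuclideanDomain R] [Infinite R] (n : ℕ), 3 ≤ n →
      ∀ (G K : Type) [Group G] [Group K] (π : Matrix.SpecialLinearGroup (Fin n) R →* G),
        Function.Surjective π → π.ker = Subgroup.center _ → ICC K →
        DetectsAbOn G K ((Set.range fun i : Fin n => (row R i).map π) ∪
          Set.range fun i : Fin n => (col R i).map π)) ∧
    (∀ (G K : Type) [Group G] [Group K], ICC G →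
      ∀ (ι : Type) (a b : ι → G) (A B C : ι → Subgroup G),
        (Subgroup.closure (Set.range a ∪ Set.range b)).FiniteIndex →
        (∀ i, a i ∈ A i ∧ b i ∈ B i ∧ a i * b i ∈ C i ∧
          A i ⊓ B i = ⊥ ∧ A i ⊓ C i = ⊥ ∧ B i ⊓ C i = ⊥ ∧
          MaxAb (A i) ∧ MaxAb (B i) ∧ MaxAb (C i)) →
        DetectsAbOn G K (Set.range A ∪ Set.range B ∪ Set.range C)) :=
  ⟨P092.abB P092.cnv0 P092.ab0 P092.glk0 P092.mab0 P092.int0 P092.mrow0 P092.mcol0,
    P092.abC P092.cnv0 P092.ab0 P092.glk0⟩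

end Vale.Agent.Results.P092.Abelian
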