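import Vale.Agent.P092.CMain

namespace Vale.Agent.Results.P092.Cyclic

open Vale.Agent.P092S

theorem result :
    (∀ (G K : Type) [Group G] [Group K], ICC G →
      ∀ H : Subgroup G, H.FiniteIndex → (∀ g ∈ H, IsOfFinOrder g → g = 1) →
        DetectsOn G K {P | ∃ g ∈ H, P = Subgroup.zpowers g}) ∧
    (∀ (G K : Type) [Group G] [Group K], ICC G →
      ∀ X : Set G, (∀ g ∈ X, ¬IsOfFinOrder g) → (Subgroup.closure X).FiniteIndex →
        DetectsOn G K {P | ∃ g ∈ X, ∃ i : ℕ,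
          P = Subgroup.zpowers (g ^ 2 ^ i) ∨ P = Subgroup.zpowers (g ^ 3 ^ i)}) ∧
    (∀ (R : Type) [EuclideanDomain R] [Infinite R] (n : ℕ) [NeZero n], 3 ≤ n →
      ∀ (G K : Type) [Group G] [Group K] (π : Matrix.SpecialLinearGroup (Fin n) R →* G),
        Function.Surjective π → π.ker ≤ Subgroup.center _ → ICC K →
        DetectsOn G K (Set.range fun i : Fin n => (root R i (i + 1)).map π)) :=
  ⟨P092.cyc2 P092.cnv0 P092.cyc0, P092.cyc1 P092.cnv0 P092.cyc0, P092.iffB P092.cnv0⟩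

end Vale.Agent.Results.P092.Cyclic
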