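import Vale.Agent.P092.Bridge

namespace Vale.Agent.Results.P092.GroupLike

open Vale.Agent.P092S

theorem result :
    (∀ (R : Type) [EuclideanDomain R] [Infinite R] (n : ℕ) [NeZero n], 3 ≤ n →
      ∀ (G K : Type) [Group G] [Group K] (π : Matrix.SpecialLinearGroup (Fin n) R →* G),
        Function.Surjective π → π.ker ≤ Subgroup.center _ → ICC K →
        RigidOn G K (Set.range fun i : Fin n => (root R i (i + 1)).map π)) ∧
    (∀ (G K : Type) [Group G] [Group K], ICC G → ICC K →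
      ∀ (ι : Type) (A B : ι → Subgroup G), (⨆ i, B i).FiniteIndex → (∀ i, Heis (A i) (B i)) →
        RigidOn G K (Set.range A ∪ Set.range B)) ∧
    (∀ (G K : Type) [Group G] [Group K], ICC G → ICC K →
      ∀ (ι : Type) (a b : ι → G) (A B C : ι → Subgroup G),
        (Subgroup.closure (Set.range a ∪ Set.range b)).FiniteIndex →
        (∀ i, a i ∈ A i ∧ b i ∈ B i ∧ a i * b i ∈ C i ∧
          A i ⊓ B i = ⊥ ∧ A i ⊓ C i = ⊥ ∧ B i ⊓ C i = ⊥) →
        RigidOn G K (Set.range A ∪ Set.range B ∪ Set.range C)) := by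
  refine ⟨fun R _ _ n _ hn G K _ _ π h1 h2 hK => ?_, fun G K _ _ hG hK ι A B h1 h2 => ?_,
    fun G K _ _ hG hK ι a b A B C h1 h2 => ?_⟩
  · exact (P092.rigidOn_iff G K _).2 fun θ w hw h =>
      P092.goalB R n hn G K π h1 h2 hK θ w hw fun i => h _ ⟨i, rfl⟩
  · exact (P092.rigidOn_iff G K _).2 fun θ w hw h =>
      P092.goalA G K hG hK θ w hw ι A B h1 fun i =>
        ⟨h2 i, h _ (Or.inl ⟨i, rfl⟩), h _ (Or.inr ⟨i, rfl⟩)⟩
  · exact (P092.rigidOn_iff G K _).2 fun θ w hw h =>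
      P092.goalC G K hG hK θ w hw ι a b A B C h1 fun i =>
        ⟨(h2 i).1, (h2 i).2.1, (h2 i).2.2.1, (h2 i).2.2.2.1, (h2 i).2.2.2.2.1, (h2 i).2.2.2.2.2,
          h _ (Or.inl (Or.inl ⟨i, rfl⟩)), h _ (Or.inl (Or.inr ⟨i, rfl⟩)), h _ (Or.inr ⟨i, rfl⟩)⟩

end Vale.Agent.Results.P092.GroupLike
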