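import Vale.Agent.P092.SMain

namespace Vale.Agent.Results.P092.Linear

open Vale.Agent.P092S

theorem result :
    (∀ (k : Type) [Field k] [CharZero k] (n : ℕ) (G K : Type) [Group G] [Group K], Group.FG G →
      ∀ ρ : G →* Matrix.GeneralLinearGroup (Fin n) k, Function.Injective ρ → ICC G →
        DetectsOn G K {P | ∃ g : G, ¬IsOfFinOrder g ∧ P = Subgroup.zpowers g}) ∧
    (∀ (G K : Type) [Group G] [Group K], ICC G →
      (Subgroup.closure {g : G | ¬IsOfFinOrder g}).FiniteIndex →
        DetectsOn G K {P | ∃ g : G, ¬IsOfFinOrder g ∧ P = Subgroup.zpowers g}) :=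
  ⟨P092.lin P092.sel0, P092.cyc3⟩

end Vale.Agent.Results.P092.Linear
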